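import Vale.Agent.P329.H962.Defs

/-! Row statements (typed, no proofs). Every author proves `theorem rowX : RowX` in his own file. -/

namespace Vale.Agent.P329.H962

open H259 (pw pw_zero pw_succ pw_one pw_add pw_succ' pw_mul pw_length)
open Filter

/-! ### A : language end -/
def RowA : Prop := ∀ (α : Type) [Finite α] (p : ℕ) [Fact p.Prime] (w : List α → ZMod p), Stg w →
  ∀ G : List α → ZMod p, Lc w G → Cap G

/-! ### B : the return stage -/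
def RowB0 : Prop := ∀ (α : Type) (p : ℕ) [Fact p.Prime] (w h : List α → ZMod p), Stg w → Unt w h →
  ∀ (ρ : ZMod p) (v : List α) (n0 : ℕ), ∃ n1, ∀ n, n1 ≤ n → ∀ X, Unc (rc h ρ) (pw v n) X →
    (∃ k, k + n0 ≤ n ∧ Unc w (pw v n0) (pw v k ++ X)) ∨
    (∃ k v1 v2, v = v2 ++ v1 ∧ k + n0 + 1 ≤ n ∧ w (v1 ++ (pw v k ++ X)) ≠ 0 ∧
      w ((v1 ++ v2) ++ (v1 ++ (pw v k ++ X))) ≠ 0 ∧
      N h ((v1 ++ v2) ++ (v1 ++ (pw v k ++ X))) = N h (v1 ++ (pw v k ++ X)))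
def RowB1 : Prop := ∀ (α : Type) (p : ℕ) [Fact p.Prime] (w h : List α → ZMod p), Stg w → Unt w h →
  ∀ ρ : ZMod p, Stg (rc h ρ)
def RowB2 : Prop := ∀ (α A : Type) (p : ℕ) [Fact p.Prime] (w h : List α → ZMod p), Stg w →
  Unt w h → ∀ (ρ : ZMod p) (G : List α → A), Lc w G → Lc (rc h ρ) G
def RowB3 : Prop := ∀ (α : Type) (p : ℕ) [Fact p.Prime] (w h : List α → ZMod p), Stg w → Unt w h →
  ∀ ρ : ZMod p, Lc (rc h ρ) (N h)

/-! ### C : closure of `Lc` (all elementary) -/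
def RowC : Prop := ∀ (α : Type) (p : ℕ) (w : List α → ZMod p),
  (∀ (A A' : Type) (f : A → A') (G : List α → A), Lc w G → Lc w fun X => f (G X)) ∧
  (∀ (A A' : Type) (G : List α → A) (G' : List α → A'), Lc w G → Lc w G' →
    Lc w fun X => (G X, G' X)) ∧
  (∀ (A : Type) (L : ℕ) (G : Fin L → List α → A), (∀ i, Lc w (G i)) → Lc w fun X i => G i X) ∧
  (Stg w → ∀ (A : Type) (G : List α → A), Lc w G → Lc w fun X => G X.tail) ∧
  (Stg w → ∀ (A : Type) (G : List α → A), Lc w G → ∀ k, Lc w fun X => G (X.drop k)) ∧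
  (∀ [Finite α] (J : ℕ), Lc w fun X : List α => X.take J) ∧
  (Stg w → Lc w w) ∧ (Stg w → Unt w w) ∧ (∀ h, Unt w h → Lc w h) ∧
  (Stg w → ∀ (B A : Type) (β : List α → B), Lc w β → ∀ (L : ℕ) (F : (ℕ → B) → A) (a : A),
    Wn L F → Lc w fun X => if L ≤ X.length then F (fun i => β (X.drop i)) else a)

/-! ### D : splitting -/
def RowD1 : Prop := ∀ (α : Type) (p : ℕ) [Fact p.Prime] (w : List α → ZMod p), Stg w →
  ∀ (n : ℕ) (g : List α → ZMod p), 1 ≤ n → (∀ X, g X ≠ 0 → w X ≠ 0) → Mem w (n + 1) g →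
    ∀ ρ : ZMod p, Mem (rc w ρ) n fun X => if N w X = ρ then g X else 0
def RowD2 : Prop := ∀ (α : Type) (p : ℕ) [Fact p.Prime] (w u : List α → ZMod p) (X : List α),
  N (fun X => w X * u X) X = - ∑ ρ : ZMod p, ρ * (N (phi w u ρ) X + Bf w u ρ X)
def RowD3 : Prop := ∀ (α : Type) (p : ℕ) [Fact p.Prime] (w u : List α → ZMod p), Stg w →
  Lc w u → Rt w u → ∀ ρ : ZMod p, Lc (rc w ρ) (Bf w u ρ) ∧ Lc (rc w ρ) (phi w u ρ) ∧
    ∀ lam : ZMod p, Unt (rc w ρ) fun X => rc w ρ X + lam * phi w u ρ X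

/-! ### E : regrouping -/
def RowE : Prop := ∀ (α : Type) (p : ℕ) [Fact p.Prime] (w f : List α → ZMod p),
  (∀ X, N f X = N (rgg w f) X + rgG w f X) ∧
  (Stg w → Lc w f → (∃ J, ∀ X, f X ≠ 0 → ∃ i ≤ J, w (X.drop i) ≠ 0) →
    Lc w (rgG w f) ∧ Lc w (rgg w f))

/-! ### F : dynamics of sequences -/
def RowF1 : Prop := ∀ (B B' : Type) [Finite B] [Finite B'] (π : B' → B) (z : ℕ → B')
  (M : Set (ℕ → B)), Mn M → (∀ m ∈ M, ∀ J, ∃ k, ∀ i < J, π (z (k + i)) = m i) →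
  ∃ M' : Set (ℕ → B'), Mn M' ∧ (∀ m ∈ M', ∀ J, ∃ k, ∀ i < J, z (k + i) = m i) ∧
    ∀ m ∈ M', (fun i => π (m i)) ∈ M
/-- skew product structure of `M'` over `M` with step `τ` -/
structure Skw {B : Type} {p : ℕ} (M : Set (ℕ → B)) (τ : (ℕ → B) → ZMod p)
    (M' : Set (ℕ → B × ZMod p × ZMod p)) : Prop where
  pr : ∀ m ∈ M', pr1 m ∈ M
  st : ∀ m ∈ M', (m 0).2.1 = (m 1).2.1 + (m 0).2.2
  tau : ∀ m ∈ M', (m 0).2.2 = τ (pr1 m)
def rot {B : Type} {p : ℕ} (c : ZMod p) (z : ℕ → B × ZMod p × ZMod p) :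
    ℕ → B × ZMod p × ZMod p := fun i => ((z i).1, (z i).2.1 + c, (z i).2.2)
/-- Lemma N and rotation -/
def RowF2 : Prop := ∀ (B : Type) [Finite B] (p : ℕ) [Fact p.Prime] (M : Set (ℕ → B))
  (τ : (ℕ → B) → ZMod p) (J : ℕ) (M' : Set (ℕ → B × ZMod p × ZMod p)), Mn M → Wn J τ → Mn M' →
  Skw M τ M' → ¬ Cob M τ →
  (∀ m ∈ M', ∀ c, rot c m ∈ M') ∧
  (∀ m ∈ M, ∀ s : ZMod p, ∃ m' ∈ M', pr1 m' = m ∧ (m' 0).2.1 = s) ∧
  ∀ Θ : (ℕ → B × ZMod p × ZMod p) → ZMod p, (∀ m ∈ M', ∑ c, Θ (rot c m) = τ (pr1 m)) →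
    ¬ Cob M' Θ
/-- disjoint minimal sets -/
def RowF3 : Prop := ∀ (B : Type) [Finite B] (M M' : Set (ℕ → B)), Mn M → Mn M' → M ≠ M' →
  ∃ L, ∀ m ∈ M, ∀ m' ∈ M', ∃ i < L, m i ≠ m' i
/-- coverage of noncoboundary walks (uses RowF2) -/
def RowF4 : Prop := ∀ (α B : Type) [Finite B] (p : ℕ) [Fact p.Prime] (β : List α → B)
  (h : List α → ZMod p) (M : Set (ℕ → B)) (τ : (ℕ → B) → ZMod p), Mn M →
  Rep β M h τ → ¬ Cob M τ → Cov h β M
/-- coverage transfer -/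
def RowF5 : Prop := ∀ (α B : Type) (p : ℕ) [Fact p.Prime] (β : List α → B)
  (w h : List α → ZMod p) (M : Set (ℕ → B)), (∀ m ∈ M, sh m ∈ M) →
  (∃ J, ∀ m ∈ M, ∀ X, Near β m J X → h X = w X) → Cov w β M → Cov h β M
/-- the base -/
def w0 {α : Type} {p : ℕ} : List α → ZMod p := fun X => if X = [] then 0 else 1
def RowF6 : Prop := ∀ (α : Type) (p : ℕ) [Fact p.Prime], Stg (w0 : List α → ZMod p) ∧
  ∀ ρs, ∃ J, ∀ X : List α, J ≤ X.length → ∃ i < J, iter (w0 : List α → ZMod p) ρs (X.drop i) ≠ 0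

/-! ### G : tracking and zones -/
def RowG1 : Prop := ∀ (α B A : Type) [Finite B] (p : ℕ) [Fact p.Prime] (w : List α → ZMod p)
  (β : List α → B) (wB : B → ZMod p) (lB : B → Option α) (M : Set (ℕ → B)), Stg w →
  Sys w β wB lB → (∀ m ∈ M, sh m ∈ M) → Cov w β M → ∀ G : List α → A, Lc w G →
    ∃ F, Rep β M G F
def RowG2 : Prop := ∀ (α B : Type) [Finite B] (p : ℕ) [Fact p.Prime] (w h : List α → ZMod p)
  (β : List α → B) (wB : B → ZMod p) (lB : B → Option α) (F : Filter (List α))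
  (M : Set (ℕ → B)) (ρ s : ZMod p), Stg w → Sys w β wB lB → Unt w h → Zn w β F M →
  (strd F h s).NeBot → Cov (rc h ρ) β M →
    ∃ M', Zn (rc h ρ) (ext β h) (strd F h s) M' ∧ ∀ m ∈ M', pr1 m ∈ M
def RowG3 : Prop := ∀ (α B : Type) (p : ℕ) [Fact p.Prime] (w' h : List α → ZMod p)
  (β : List α → B) (F : Filter (List α)) (M : Set (ℕ → B))
  (M' : Set (ℕ → B × ZMod p × ZMod p)) (τ : (ℕ → B) → ZMod p), Zn w' (ext β h) F M' →
  (∀ m ∈ M', pr1 m ∈ M) → Rep β M h τ → Skw M τ M'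
def RowG4 : Prop := ∀ (α B : Type) [Finite B] (p : ℕ) [Fact p.Prime] (w h : List α → ZMod p)
  (β : List α → B) (wB : B → ZMod p) (lB : B → Option α) (ρ : ZMod p), Stg w →
  Sys w β wB lB → Unt w h → Sys (rc h ρ) (ext β h) (wE ρ) (fun b => lB b.1)

/-! ### H : the predicate RR -/
def RowH1 : Prop := ∀ (α : Type) [Finite α] (p : ℕ) [Fact p.Prime] (w : List α → ZMod p)
  (Fs : List (Filter (List α))),
  (RR w Fs fun _ => 0) ∧
  (∀ G G', RR w Fs G → RR w Fs G' → RR w Fs fun X => G X + G' X) ∧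
  (∀ (a : ZMod p) G, RR w Fs G → RR w Fs fun X => a * G X)
def RowH2 : Prop := ∀ (α : Type) [Finite α] (p : ℕ) [Fact p.Prime] (w h : List α → ZMod p),
  Stg w → Unt w h → ∀ (ρ : ZMod p) (Fs : List (Filter (List α))) (G : List α → ZMod p),
  (∀ ss : List (ZMod p), ss.length = Fs.length →
    (∀ F ∈ List.zipWith (fun F s => strd F h s) Fs ss, F.NeBot) →
    RR (rc h ρ) (List.zipWith (fun F s => strd F h s) Fs ss) G) → RR w Fs G
def RowH3 : Prop := ∀ (α B : Type) [Finite α] [Finite B] (p : ℕ) [Fact p.Prime]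
  (w : List α → ZMod p) (β : List α → B) (wB : B → ZMod p) (lB : B → Option α), Stg w →
  Sys w β wB lB → ∀ Zs : List (Filter (List α) × Set (ℕ → B)), (∀ Z ∈ Zs, Zn w β Z.1 Z.2) →
  (∀ Zs' : List (Filter (List α) × Set (ℕ → B)), Zs'.length < Zs.length →
    (∀ Z ∈ Zs', Zn w β Z.1 Z.2) → ∀ g : List α → ZMod p, Lc w g → (∀ X, g X ≠ 0 → w X ≠ 0) →
    RR w (Zs'.map Prod.fst) (N g)) →
  ∀ G : List α → ZMod p, Lc w G → RR w (Zs.map Prod.fst) G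

/-! ### I : flattening -/
def RowI : Prop := ∀ (α B : Type) [Finite α] [Finite B] (p : ℕ) [Fact p.Prime]
  (w : List α → ZMod p) (β : List α → B) (wB : B → ZMod p) (lB : B → Option α), Stg w →
  Sys w β wB lB → ∀ Zs : List (Filter (List α) × Set (ℕ → B)), (∀ Z ∈ Zs, Zn w β Z.1 Z.2) →
  ∀ g : List α → ZMod p, Lc w g → (∀ X, g X ≠ 0 → w X ≠ 0) → ∀ Z ∈ Zs, ∀ τ, Rep β Z.2 g τ → Cob Z.2 τ →
  ∃ g' G', Lc w g' ∧ (∀ X, g' X ≠ 0 → w X ≠ 0) ∧ Lc w G' ∧ (∀ X, N g X = N g' X + G' X) ∧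
    Fl g' β Z.2 ∧ ∀ Z' ∈ Zs, Fl g β Z'.2 → Fl g' β Z'.2

/-! ### J : the core -/
def RowJ : Prop := ∀ (α B : Type) [Finite α] [Finite B] (p : ℕ) [Fact p.Prime]
  (w : List α → ZMod p) (β : List α → B) (wB : B → ZMod p) (lB : B → Option α), Stg w →
  Sys w β wB lB → ∀ Zs : List (Filter (List α) × Set (ℕ → B)), (∀ Z ∈ Zs, Zn w β Z.1 Z.2) →
  ∀ g : List α → ZMod p, Lc w g → (∀ X, g X ≠ 0 → w X ≠ 0) → RR w (Zs.map Prod.fst) (N g)

/-! ### K : from the core to all chains over the letters (817's compactness) -/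
def RowK : Prop := ∀ (α : Type) [Finite α] (p : ℕ) [Fact p.Prime] (k0 : List α → ZMod p)
  (ks : List (List α → ZMod p)), (∃ c, ∀ X Y : List α, X.take c = Y.take c → k0 X = k0 Y) →
  (∀ k ∈ ks, ∃ c, ∀ X Y : List α, X.take c = Y.take c → k X = k Y) →
  Cap (ks.foldl (fun F k => TL k F) (N k0))

end Vale.Agent.P329.H962
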