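import Vale.Agent.P329.H962.J2

namespace Vale.Agent.P329.H962

open Filter

theorem rowG3 : RowG3 := by
  intro α B p _ w' h β F M M' τ hZ hpr hτ
  obtain ⟨J, hJ, hτr⟩ := hτ
  refine ⟨hpr, fun m hm => ?_, fun m hm => ?_⟩
  · obtain ⟨X, hX⟩ := hZ.valid hm 2
    obtain ⟨a, Y, rfl⟩ := hX.cons
    have h0 := hX.2 0 (by omega)
    have h1 := hX.2 1 (by omega)
    have h0' : ext β h (a :: Y) = m 0 := h0
    have h1' : ext β h Y = m 1 := h1
    rw [← h0', ← h1']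
    rfl
  · obtain ⟨X, hX⟩ := hZ.valid hm (J + 1)
    have h0 := hX.2 0 (by omega)
    rw [List.drop_zero] at h0
    rw [← h0]
    exact hτr _ (hpr m hm) X (near_pr1 (hX.mono (by omega)))

theorem rowG4 (hB2 : RowB2) (hB3 : RowB3) (hC : RowC) : RowG4 := by
  intro α B _ p _ w h β wB lB ρ hw hS hh
  refine ⟨fun X => rfl, fun X => hS.l_eq X, ?_⟩
  have h1 := hB2 α B p w h hw hh ρ β hS.lc
  have h2 := hB3 α p w h hw hh ρ
  have h3 := hB2 α (ZMod p) p w h hw hh ρ h ((hC α p w).2.2.2.2.2.2.2.2.1 h hh)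
  exact (hC α p (rc h ρ)).2.1 _ _ β _ h1 ((hC α p (rc h ρ)).2.1 _ _ (N h) h h2 h3)

end Vale.Agent.P329.H962
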