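import Vale.Agent.P329.H962.J3
import Vale.Agent.P329.H962.G34
import Vale.Agent.P329.H62.RowA
import Vale.Agent.P329.H560.RowB
import Vale.Agent.P329.H483.RowC
import Vale.Agent.P329.H818.RowD
import Vale.Agent.P329.H100.RowsCE
import Vale.Agent.P329.H657.RowF1
import Vale.Agent.P329.H6.RowF2
import Vale.Agent.P329.H861.RowF4
import Vale.Agent.P329.H320.RowF56
import Vale.Agent.P329.H434.RowG1
import Vale.Agent.P329.H320.RowG2
import Vale.Agent.P329.H19.RowH
import Vale.Agent.P329.H19.RowH3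
import Vale.Agent.P329.H19.RowF3
import Vale.Agent.P329.H434.RowI

namespace Vale.Agent.P329.H962.Fin

open Vale.Agent.P329

theorem hrows : HRows where
  B1 := H560.rowB1
  B2 := H560.rowB2
  B3 := H560.rowB3
  C := H483.rowC
  D1 := H818.rowD1
  D2 := H818.rowD2
  D3 := H818.rowD3 H560.rowB1 H560.rowB2 H560.rowB3 H483.rowC
  F2 := rowF2
  F4 := H861.rowF4 H657.rowF1 rowF2
  F5 := H320.rowF5
  G1 := H434.rowG1
  G2 := H320.rowG2 H657.rowF1
  G3 := rowG3
  G4 := rowG4 H560.rowB2 H560.rowB3 H483.rowC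
  H1 := H19.rowH1
  H2 := H19.rowH2 H560.rowB2 H560.rowB3 H483.rowC H19.rowH1
  H3 := H19.rowH3 H62.A.rowA H483.rowC H100.R.rowE H19.rowH1
  I := H434.rowI H483.rowC H100.R.rowE H19.rowF3

/-- the core, unconditional -/
theorem core : RowJ := rowJ hrows

end Vale.Agent.P329.H962.Fin
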