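import Vale.Agent.P329.H962.Rows

namespace Vale.Agent.P329.H962

open H259 (pw pw_zero pw_succ pw_one pw_add pw_succ' pw_mul pw_length)
open Filter

variable {α A B : Type} {p : ℕ}

theorem Mem.mono {w : List α → ZMod p} {n n' : ℕ} {G : List α → A} (h : Mem w n G)
    (hn : n ≤ n') : Mem w n' G :=
  fun c c' S hc hc' hS => h c c' S hc hc' (hn.trans hS)

theorem Cob.add {M : Set (ℕ → B)} {f g : (ℕ → B) → ZMod p} (hf : Cob M f) (hg : Cob M g) :
    Cob M fun z => f z + g z := by
  obtain ⟨φ, ⟨J, hJ⟩, h1⟩ := hf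
  obtain ⟨ψ, ⟨K, hK⟩, h2⟩ := hg
  refine ⟨fun z => φ z + ψ z, ⟨max J K, fun z z' h => ?_⟩, fun m hm => ?_⟩
  · change φ z + ψ z = φ z' + ψ z'
    rw [hJ z z' fun i hi => h i (lt_of_lt_of_le hi (le_max_left _ _)),
      hK z z' fun i hi => h i (lt_of_lt_of_le hi (le_max_right _ _))]
  · change f m + g m = _
    rw [h1 m hm, h2 m hm]; ring

theorem Cob.neg {M : Set (ℕ → B)} {f : (ℕ → B) → ZMod p} (hf : Cob M f) :
    Cob M fun z => - f z := by
  obtain ⟨φ, ⟨J, hJ⟩, h1⟩ := hf
  refine ⟨fun z => - φ z, ⟨J, fun z z' h => ?_⟩, fun m hm => ?_⟩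
  · change - φ z = - φ z'
    rw [hJ z z' h]
  · change - f m = _
    rw [h1 m hm]; ring

theorem Cob.congr {M : Set (ℕ → B)} {f g : (ℕ → B) → ZMod p} (hf : Cob M f)
    (h : ∀ m ∈ M, f m = g m) : Cob M g := by
  obtain ⟨φ, hJ, h1⟩ := hf
  exact ⟨φ, hJ, fun m hm => by rw [← h m hm, h1 m hm]⟩

/-- differences of window functions are coboundaries if `M` is invariant -/
theorem cob_diff {M : Set (ℕ → B)} {b : (ℕ → B) → ZMod p} {J : ℕ} (hb : Wn J b) :
    Cob M fun z => b z - b (sh z) :=
  ⟨b, ⟨J, hb⟩, fun _ _ => rfl⟩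

theorem Near.mono {β : List α → B} {z : ℕ → B} {J K : ℕ} {X : List α} (h : Near β z J X)
    (hK : K ≤ J) : Near β z K X :=
  ⟨hK.trans h.1, fun i hi => h.2 i (lt_of_lt_of_le hi hK)⟩

theorem Near.drop {β : List α → B} {z : ℕ → B} {J k : ℕ} {X : List α} (h : Near β z (k + J) X) :
    Near β (fun i => z (k + i)) J (X.drop k) := by
  refine ⟨?_, fun i hi => ?_⟩
  · have := h.1
    rw [List.length_drop]; omega
  · rw [List.drop_drop]
    exact h.2 (k + i) (by omega)

theorem shk_mem {M : Set (ℕ → B)} (hM : ∀ m ∈ M, sh m ∈ M) {m : ℕ → B} (hm : m ∈ M) :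
    ∀ k, (fun i => m (k + i)) ∈ M := by
  intro k
  induction k with
  | zero => simpa using hm
  | succ k ih =>
    have := hM _ ih
    have e : sh (fun i => m (k + i)) = fun i => m (k + 1 + i) := by
      funext i
      change m (k + (i + 1)) = _
      congr 1; omega
    rwa [e] at this

theorem near_pr1 {β : List α → B} {h : List α → ZMod p} {m : ℕ → B × ZMod p × ZMod p} {J : ℕ}
    {X : List α} (hX : Near (ext β h) m J X) : Near β (pr1 m) J X := by
  refine ⟨hX.1, fun i hi => ?_⟩
  have := hX.2 i hi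
  change β (X.drop i) = (m i).1
  rw [← this]; rfl

theorem cov_rc {w : List α → ZMod p} {β : List α → B} {M : Set (ℕ → B)} (h : Cov w β M)
    (ρ : ZMod p) : Cov (rc w ρ) β M := fun ρs => h (ρ :: ρs)

theorem sys_rep {w : List α → ZMod p} {β : List α → B} {wB : B → ZMod p} {lB : B → Option α}
    (hS : Sys w β wB lB) (M : Set (ℕ → B)) : Rep β M w fun z => wB (z 0) := by
  refine ⟨1, fun z z' h => ?_, fun m _ X hX => ?_⟩
  · change wB (z 0) = wB (z' 0)
    rw [h 0 (by omega)]
  · have := hX.2 0 (by omega)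
    rw [List.drop_zero] at this
    change w X = wB (m 0)
    rw [hS.w_eq, this]

/-- relation between old and new zones -/
def Over (w' : List α → ZMod p) (β : List α → B) (h : List α → ZMod p)
    (Z : Filter (List α) × Set (ℕ → B))
    (Z' : Filter (List α) × Set (ℕ → B × ZMod p × ZMod p)) : Prop :=
  Zn w' (ext β h) Z'.1 Z'.2 ∧ ∀ m ∈ Z'.2, pr1 m ∈ Z.2

section stage

variable [Finite α] [Finite B] [Fact p.Prime]

theorem stage_list (hG2 : RowG2) {w h : List α → ZMod p} {β : List α → B} {wB : B → ZMod p}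
    {lB : B → Option α} {ρ : ZMod p} (hw : Stg w) (hS : Sys w β wB lB) (hh : Unt w h) :
    ∀ (Zs : List (Filter (List α) × Set (ℕ → B))), (∀ Z ∈ Zs, Zn w β Z.1 Z.2) →
      (∀ Z ∈ Zs, Cov (rc h ρ) β Z.2) → ∀ ss : List (ZMod p), ss.length = (Zs.map Prod.fst).length →
      (∀ F ∈ List.zipWith (fun F s => strd F h s) (Zs.map Prod.fst) ss, F.NeBot) →
      ∃ Zs' : List (Filter (List α) × Set (ℕ → B × ZMod p × ZMod p)),
        List.Forall₂ (Over (rc h ρ) β h) Zs Zs' ∧
        Zs'.map Prod.fst = List.zipWith (fun F s => strd F h s) (Zs.map Prod.fst) ss := by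
  intro Zs
  induction Zs with
  | nil =>
    intro _ _ ss hss _
    have : ss = [] := List.length_eq_zero_iff.mp hss
    subst this
    exact ⟨[], List.Forall₂.nil, rfl⟩
  | cons Z Zs ih =>
    intro hZ hC ss hss hN
    cases ss with
    | nil => cases hss
    | cons s ss =>
      rw [List.map_cons, List.zipWith_cons_cons] at hN
      obtain ⟨M', h1, h2⟩ := hG2 α B p w h β wB lB Z.1 Z.2 ρ s hw hS hh
        (hZ Z List.mem_cons_self) (hN _ List.mem_cons_self) (hC Z List.mem_cons_self)
      obtain ⟨Zs', h3, h4⟩ := ih (fun Z hZ' => hZ Z (List.mem_cons_of_mem _ hZ'))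
        (fun Z hZ' => hC Z (List.mem_cons_of_mem _ hZ')) ss (by simpa using hss)
        (fun F hF => hN F (List.mem_cons_of_mem _ hF))
      refine ⟨(strd Z.1 h s, M') :: Zs', List.Forall₂.cons ⟨h1, h2⟩ h3, ?_⟩
      rw [List.map_cons, List.map_cons, List.zipWith_cons_cons, h4]

theorem stage_RR (hG2 : RowG2) (hH2 : RowH2) {w h : List α → ZMod p} {β : List α → B}
    {wB : B → ZMod p} {lB : B → Option α} {ρ : ZMod p} (hw : Stg w) (hS : Sys w β wB lB)
    (hh : Unt w h) {Zs : List (Filter (List α) × Set (ℕ → B))} (hZ : ∀ Z ∈ Zs, Zn w β Z.1 Z.2)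
    (hC : ∀ Z ∈ Zs, Cov (rc h ρ) β Z.2) {G : List α → ZMod p}
    (H : ∀ Zs' : List (Filter (List α) × Set (ℕ → B × ZMod p × ZMod p)),
      List.Forall₂ (Over (rc h ρ) β h) Zs Zs' → RR (rc h ρ) (Zs'.map Prod.fst) G) :
    RR w (Zs.map Prod.fst) G := by
  refine hH2 α p w h hw hh ρ _ G fun ss hss hN => ?_
  obtain ⟨Zs', h1, h2⟩ := stage_list hG2 hw hS hh Zs hZ hC ss hss hN
  rw [← h2]
  exact H Zs' h1

end stage

theorem over_zn {w' h : List α → ZMod p} {β : List α → B}
    {Zs : List (Filter (List α) × Set (ℕ → B))}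
    {Zs' : List (Filter (List α) × Set (ℕ → B × ZMod p × ZMod p))}
    (H : List.Forall₂ (Over w' β h) Zs Zs') : ∀ Z ∈ Zs', Zn w' (ext β h) Z.1 Z.2 := by
  induction H with
  | nil => intro Z hZ; cases hZ
  | cons h1 _ ih =>
    intro Z hZ
    rcases List.mem_cons.mp hZ with rfl | hZ
    · exact h1.1
    · exact ih Z hZ

/-- sums in `RR` -/
theorem RR_sum [Finite α] [Fact p.Prime] (hH1 : RowH1) {w : List α → ZMod p}
    {Fs : List (Filter (List α))} {ι : Type} (S : Finset ι) (G : ι → List α → ZMod p)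
    (h : ∀ i ∈ S, RR w Fs (G i)) : RR w Fs fun X => ∑ i ∈ S, G i X := by
  classical
  induction S using Finset.induction_on with
  | empty => simpa using (hH1 α p w Fs).1
  | insert a S ha ih =>
    have := (hH1 α p w Fs).2.1 _ _ (h a (Finset.mem_insert_self _ _))
      (ih fun i hi => h i (Finset.mem_insert_of_mem hi))
    simpa [Finset.sum_insert ha] using this

theorem N_add (f g : List α → ZMod p) (X : List α) :
    N (fun X => f X + g X) X = N f X + N g X := by
  induction X with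
  | nil => simp [N]
  | cons a X ih => rw [N, N, N, ih]; ring

theorem N_sum {ι : Type} (S : Finset ι) (f : ι → List α → ZMod p) (X : List α) :
    N (fun X => ∑ i ∈ S, f i X) X = ∑ i ∈ S, N (f i) X := by
  induction X with
  | nil => simp [N]
  | cons a X ih =>
    rw [N, ih, ← Finset.sum_add_distrib]
    rfl

theorem N_smul (a : ZMod p) (f : List α → ZMod p) (X : List α) :
    N (fun X => a * f X) X = a * N f X := by
  induction X with
  | nil => simp [N]
  | cons b X ih => rw [N, N, ih]; ring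

/-! ### the null label, pointwise -/

theorem Bf_zero (w u : List α → ZMod p) (ρ : ZMod p) : ∀ X, N w X = ρ → Bf w u ρ X = 0 := by
  intro X
  induction X with
  | nil => intro _; rfl
  | cons a X ih =>
    intro h
    rw [Bf]
    by_cases h1 : w (a :: X) = 0
    · rw [if_pos h1]
      apply ih
      rw [N, h1, add_zero] at h
      exact h
    · rw [if_neg h1, if_pos h]

theorem phi_id (w u : List α → ZMod p) (ρ : ZMod p) (a : α) (X : List α) :
    phi w u ρ (a :: X) = u (a :: X) * ((if N w X = ρ then 1 else 0) -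
      (if N w (a :: X) = ρ then 1 else 0)) - Bf w u ρ (a :: X) + Bf w u ρ X := by
  rw [phi, Bf, rc]
  by_cases h1 : w (a :: X) = 0
  · have h2 : N w (a :: X) = N w X := by rw [N, h1, add_zero]
    rw [if_pos h1, h2, h1]
    simp
  · rw [if_neg h1]
    by_cases h3 : N w (a :: X) = ρ
    · have h4 : N w X ≠ ρ := by
        intro h
        rw [N, h] at h3
        exact h1 (by simpa using h3)
      rw [if_pos h3, if_neg h1, if_pos h3, if_neg h4, if_pos h3]
      ring
    · rw [if_neg h3, if_pos rfl, if_neg h3, if_neg h3]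
      by_cases h4 : N w X = ρ
      · rw [if_pos h4, if_pos h4, Bf_zero w u ρ X h4]
        ring
      · rw [if_neg h4, if_neg h4]
        ring

end Vale.Agent.P329.H962
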