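import Vale.Agent.P329.H962.J1

namespace Vale.Agent.P329.H962

open H259 (pw pw_zero pw_succ pw_one pw_add pw_succ' pw_mul pw_length)
open Filter

variable {α A B : Type} {p : ℕ}

theorem Zn.valid {w : List α → ZMod p} {β : List α → B} {F : Filter (List α)} {M : Set (ℕ → B)}
    (h : Zn w β F M) {m : ℕ → B} (hm : m ∈ M) (J : ℕ) : ∃ X, Near β m J X := by
  obtain ⟨z, h1, h2⟩ := h.z
  obtain ⟨k, hk⟩ := h2 m hm J
  have := h.nb
  obtain ⟨X, hX⟩ := (h1 (k + J)).exists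
  refine ⟨X.drop k, (hX.drop).1, fun i hi => ?_⟩
  rw [(hX.drop).2 i hi]
  exact hk i hi

theorem Near.sh {β : List α → B} {z : ℕ → B} {J : ℕ} {a : α} {X : List α}
    (h : Near β z (J + 1) (a :: X)) : Near β (sh z) J X := by
  refine ⟨by have := h.1; rw [List.length_cons] at this; omega, fun i hi => ?_⟩
  exact h.2 (i + 1) (by omega)

theorem Near.cons {β : List α → B} {z : ℕ → B} {J : ℕ} {X : List α}
    (h : Near β z (J + 1) X) : ∃ a Y, X = a :: Y := by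
  cases X with
  | nil => have := h.1; simp at this
  | cons a Y => exact ⟨a, Y, rfl⟩

theorem Bf_down (w u : List α → ZMod p) (ρ : ZMod p) : ∀ (i : ℕ) (Y : List α), i ≤ Y.length →
    Bf w u ρ (Y.drop i) = 0 → (∀ j < i, u (Y.drop j) = 0) → Bf w u ρ Y = 0 := by
  intro i
  induction i with
  | zero => intro Y _ h _; simpa using h
  | succ i ih =>
    intro Y hi h hu
    cases Y with
    | nil => simp at hi
    | cons a Z =>
      have h1 : Bf w u ρ Z = 0 := ih Z (by simpa using hi) (by simpa using h)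
        (fun j hj => by simpa using hu (j + 1) (by omega))
      have h2 : u (a :: Z) = 0 := by simpa using hu 0 (by omega)
      rw [Bf, h1, h2]
      simp

section split

variable [Finite B] [Fact p.Prime]
  {w u : List α → ZMod p} {β : List α → B} {wB : B → ZMod p} {lB : B → Option α} {ρ : ZMod p}
  {Z : Filter (List α) × Set (ℕ → B)} {Z' : Filter (List α) × Set (ℕ → B × ZMod p × ZMod p)}

theorem over_skw (hG3 : RowG3) (hS : Sys w β wB lB) {w' : List α → ZMod p}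
    (hO : Over w' β w Z Z') : Skw Z.2 (fun z => wB (z 0)) Z'.2 :=
  hG3 α B p w' w β Z'.1 Z.2 Z'.2 _ hO.1 hO.2 (sys_rep hS _)

theorem sum_ind (x ρ t : ZMod p) : ∑ c : ZMod p, (if x + c = ρ then t else 0) = t := by
  rw [Finset.sum_eq_single (ρ - x)]
  · rw [if_pos (by ring)]
  · intro b _ hb
    rw [if_neg]
    intro h
    apply hb
    rw [← h]; ring
  · intro h; exact absurd (Finset.mem_univ _) h

theorem gd_over (hF2 : RowF2) (hG3 : RowG3) (hS : Sys w β wB lB) (hZ : Zn w β Z.1 Z.2)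
    (hO : Over (rc w ρ) β w Z Z') (hg : Gd wB Z.2) : Gd (wE ρ : B × ZMod p × ZMod p → ZMod p) Z'.2 := by
  have hsk := over_skw hG3 hS hO
  refine (hF2 B p Z.2 _ 1 Z'.2 hZ.mn ?_ hO.1.mn hsk hg).2.2 (fun z => wE ρ (z 0)) ?_
  · intro z z' h
    change wB (z 0) = wB (z' 0)
    rw [h 0 (by omega)]
  · intro m hm
    rw [← hsk.tau m hm]
    exact sum_ind (m 0).2.1 ρ (m 0).2.2

theorem gd_phi (hF2 : RowF2) (hG3 : RowG3) (hG1 : RowG1) (hG4 : RowG4) (hB1 : RowB1)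
    (hC : RowC) (hD3 : RowD3) (hw : Stg w) (hS : Sys w β wB lB) (hZ : Zn w β Z.1 Z.2)
    (hu : Lc w u) (hr : Rt w u)
    (hO : Over (rc w ρ) β w Z Z') (hg : Gd wB Z.2) (τ : (ℕ → B × ZMod p × ZMod p) → ZMod p)
    (hτ : Rep (ext β w) Z'.2 (phi w u ρ) τ) : ¬ Cob Z'.2 fun z => wE ρ (z 0) + τ z := by
  have hsk := over_skw hG3 hS hO
  have hww : Unt w w := (hC α p w).2.2.2.2.2.2.2.1 hw
  have hS' := hG4 α B p w w β wB lB ρ hw hS hww
  have hw' := hB1 α p w w hw hww ρ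
  obtain ⟨hBf, -, -⟩ := hD3 α p w u hw hu hr ρ
  obtain ⟨U, J1, hU, hUr⟩ := hG1 α B (ZMod p) p w β wB lB Z.2 hw hS hZ.mn.inv hZ.cov u hu
  obtain ⟨b, J2, hb, hbr⟩ := hG1 α (B × ZMod p × ZMod p) (ZMod p) p (rc w ρ) (ext β w) (wE ρ) _
    Z'.2 hw' hS' hO.1.mn.inv hO.1.cov _ hBf
  obtain ⟨J3, hτ3, hτr⟩ := hτ
  intro hcob
  refine (hF2 B p Z.2 _ 1 Z'.2 hZ.mn ?_ hO.1.mn hsk hg).2.2 (fun z => wE ρ (z 0) +
    U (pr1 z) * ((if (z 1).2.1 = ρ then 1 else 0) - (if (z 0).2.1 = ρ then 1 else 0))) ?_ ?_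
  · intro z z' h
    change wB (z 0) = wB (z' 0)
    rw [h 0 (by omega)]
  · intro m hm
    rw [← hsk.tau m hm]
    have e : ∀ c : ZMod p, (wE ρ (rot c m 0) +
        U (pr1 (rot c m)) * ((if (rot c m 1).2.1 = ρ then 1 else 0) -
          (if (rot c m 0).2.1 = ρ then 1 else 0))) =
        (if (m 0).2.1 + c = ρ then (m 0).2.2 else 0) + U (pr1 m) *
          ((if (m 1).2.1 + c = ρ then 1 else 0) - (if (m 0).2.1 + c = ρ then 1 else 0)) :=
      fun c => rfl
    rw [Finset.sum_congr rfl fun c _ => e c, Finset.sum_add_distrib, ← Finset.mul_sum,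
      Finset.sum_sub_distrib, sum_ind, sum_ind, sum_ind]
    ring
  · refine (hcob.add (cob_diff hb)).congr fun m hm => ?_
    obtain ⟨X, hX⟩ := hO.1.valid hm (J1 + J2 + J3 + 1 + 1)
    obtain ⟨a, Y, rfl⟩ := hX.cons
    have h0 : (N w (a :: Y)) = (m 0).2.1 := by
      have := hX.2 0 (by omega)
      rw [← this]; rfl
    have h1 : (N w Y) = (m 1).2.1 := by
      have := hX.2 1 (by omega)
      rw [← this]; rfl
    have h2 : phi w u ρ (a :: Y) = τ m := hτr m hm _ (hX.mono (by omega))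
    have h3 : u (a :: Y) = U (pr1 m) := hUr _ (hO.2 m hm) _ (near_pr1 (hX.mono (by omega)))
    have h4 : Bf w u ρ (a :: Y) = b m := hbr m hm _ (hX.mono (by omega))
    have h5 : Bf w u ρ Y = b (sh m) := hbr _ (hO.1.mn.inv m hm) _ (hX.sh.mono (by omega))
    have h6 := phi_id w u ρ a Y
    rw [h2, h3, h4, h5, h0, h1] at h6
    rw [h6]
    ring

theorem fl_phi (hS : Sys w β wB lB) (hO : Over (rc w ρ) β w Z Z') (hg : Fl u β Z.2) :
    Fl (phi w u ρ) (ext β w) Z'.2 := by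
  obtain ⟨J0, h0⟩ := hg
  obtain ⟨J1, h1⟩ := hO.1.cov []
  refine ⟨J0 + J1 + 1, fun m hm X hX => ?_⟩
  obtain ⟨a, Y, rfl⟩ := hX.cons
  have hu0 : u (a :: Y) = 0 := h0 _ (hO.2 m hm) _ (near_pr1 (hX.mono (by omega)))
  have hY := hX.sh
  have hm' := hO.1.mn.inv m hm
  obtain ⟨i, hi, hi2⟩ := h1 _ hm' _ (hY.mono (by omega))
  have hi3 : rc w ρ (Y.drop i) ≠ 0 := hi2
  have hB0 : Bf w u ρ Y = 0 := by
    refine Bf_down w u ρ i Y (by have := hY.1; omega) (Bf_zero w u ρ _ ?_) fun j hj => ?_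
    · by_contra hne
      apply hi3
      rw [rc, if_neg hne]
    · have hYj : Near (ext β w) (fun i => sh m (j + i)) J0 (Y.drop j) :=
        (hY.mono (K := j + J0) (by omega)).drop
      exact h0 _ (hO.2 _ (shk_mem hO.1.mn.inv hm' j)) _ (near_pr1 hYj)
  rw [phi, hB0, hu0]
  simp

theorem fl_arr {g : List α → ZMod p} {w' : List α → ZMod p} (hO : Over w' β w Z Z')
    (hg : Fl g β Z.2) : Fl (fun X => if N w X = ρ then g X else 0) (ext β w) Z'.2 := by
  obtain ⟨J0, h0⟩ := hg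
  refine ⟨J0, fun m hm X hX => ?_⟩
  change (if N w X = ρ then g X else 0) = 0
  rw [h0 _ (hO.2 m hm) _ (near_pr1 hX)]
  simp

end split

end Vale.Agent.P329.H962
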