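import Vale.Agent.P329.H962.J2

namespace Vale.Agent.P329.H962

open H259 (pw pw_zero pw_succ pw_one pw_add pw_succ' pw_mul pw_length)
open Filter

variable {α A B : Type} {p : ℕ}

/-- bad zones: neither flat nor good -/
def Bad (g : List α → ZMod p) (β : List α → B) (wB : B → ZMod p) (M : Set (ℕ → B)) : Prop :=
  ¬ Fl g β M ∧ ¬ Gd wB M

open Classical in
noncomputable def nb (g : List α → ZMod p) (β : List α → B) (wB : B → ZMod p)
    (Zs : List (Filter (List α) × Set (ℕ → B))) : ℕ :=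
  Zs.countP fun Z => decide (Bad g β wB Z.2)

open Classical in
theorem nb_cons (g : List α → ZMod p) (β : List α → B) (wB : B → ZMod p)
    (Z : Filter (List α) × Set (ℕ → B)) (Zs : List (Filter (List α) × Set (ℕ → B))) :
    nb g β wB (Z :: Zs) = nb g β wB Zs + if Bad g β wB Z.2 then 1 else 0 := by
  unfold nb
  rw [List.countP_cons]
  simp

theorem nb_le {B B' : Type} {g g' : List α → ZMod p} {β : List α → B} {β' : List α → B'}
    {wB : B → ZMod p} {wB' : B' → ZMod p}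
    {R : Filter (List α) × Set (ℕ → B) → Filter (List α) × Set (ℕ → B') → Prop}
    {Zs : List (Filter (List α) × Set (ℕ → B))} {Zs' : List (Filter (List α) × Set (ℕ → B'))}
    (H : List.Forall₂ R Zs Zs')
    (h : ∀ Z ∈ Zs, ∀ Z' ∈ Zs', R Z Z' → ¬ Bad g β wB Z.2 → ¬ Bad g' β' wB' Z'.2) :
    nb g' β' wB' Zs' ≤ nb g β wB Zs := by
  classical
  induction H with
  | nil => simp [nb]
  | @cons Z Z' Zs Zs' h1 h2 ih =>
    have ih' := ih fun Z hZ Z' hZ' => h Z (List.mem_cons_of_mem _ hZ) Z' (List.mem_cons_of_mem _ hZ')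
    have h0 := h Z List.mem_cons_self Z' List.mem_cons_self h1
    rw [nb_cons, nb_cons]
    by_cases hb : Bad g β wB Z.2
    · rw [if_pos hb]
      split_ifs <;> omega
    · rw [if_neg hb, if_neg (h0 hb)]
      omega

theorem nb_lt {B B' : Type} {g g' : List α → ZMod p} {β : List α → B} {β' : List α → B'}
    {wB : B → ZMod p} {wB' : B' → ZMod p}
    {R : Filter (List α) × Set (ℕ → B) → Filter (List α) × Set (ℕ → B') → Prop}
    {Zs : List (Filter (List α) × Set (ℕ → B))} {Zs' : List (Filter (List α) × Set (ℕ → B'))}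
    (H : List.Forall₂ R Zs Zs')
    (h : ∀ Z ∈ Zs, ∀ Z' ∈ Zs', R Z Z' → ¬ Bad g β wB Z.2 → ¬ Bad g' β' wB' Z'.2)
    {Z0 : Filter (List α) × Set (ℕ → B')} (hZ0 : Z0 ∈ Zs') (hb0 : ¬ Bad g' β' wB' Z0.2)
    (h1 : ∀ Z ∈ Zs, R Z Z0 → Bad g β wB Z.2) :
    nb g' β' wB' Zs' < nb g β wB Zs := by
  classical
  induction H with
  | nil => cases hZ0
  | @cons Z Z' Zs Zs' h2 h3 ih =>
    have hle := nb_le h3 (g := g) (g' := g') (β := β) (β' := β') (wB := wB) (wB' := wB')
      fun Z hZ Z' hZ' => h Z (List.mem_cons_of_mem _ hZ) Z' (List.mem_cons_of_mem _ hZ')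
    have h0 := h Z List.mem_cons_self Z' List.mem_cons_self h2
    rw [nb_cons, nb_cons]
    rcases List.mem_cons.mp hZ0 with rfl | hmem
    · have hb := h1 Z List.mem_cons_self h2
      rw [if_pos hb, if_neg hb0]
      omega
    · have ih' := ih (fun Z hZ Z' hZ' => h Z (List.mem_cons_of_mem _ hZ) Z'
        (List.mem_cons_of_mem _ hZ')) hmem fun Z hZ => h1 Z (List.mem_cons_of_mem _ hZ)
      by_cases hb : Bad g β wB Z.2
      · rw [if_pos hb]
        split_ifs <;> omega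
      · rw [if_neg hb, if_neg (h0 hb)]
        omega

theorem exists_of_forall₂ {X Y : Type*} {R : X → Y → Prop} {l : List X} {l' : List Y}
    (H : List.Forall₂ R l l') {y : Y} (hy : y ∈ l') : ∃ x ∈ l, R x y := by
  induction H with
  | nil => cases hy
  | @cons a b l l' h1 _ ih =>
    rcases List.mem_cons.mp hy with rfl | hy
    · exact ⟨a, List.mem_cons_self, h1⟩
    · obtain ⟨x, hx, h⟩ := ih hy
      exact ⟨x, List.mem_cons_of_mem _ hx, h⟩

/-- the rows used by the induction -/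
structure HRows : Prop where
  B1 : RowB1
  B2 : RowB2
  B3 : RowB3
  C : RowC
  D1 : RowD1
  D2 : RowD2
  D3 : RowD3
  F2 : RowF2
  F4 : RowF4
  F5 : RowF5
  G1 : RowG1
  G2 : RowG2
  G3 : RowG3
  G4 : RowG4
  H1 : RowH1
  H2 : RowH2
  H3 : RowH3
  I : RowI

/-- the core for lists of length `m` -/
def PJ (α : Type) (p m : ℕ) : Prop := ∀ (B : Type) [Finite B]
  (w : List α → ZMod p) (β : List α → B) (wB : B → ZMod p) (lB : B → Option α), Stg w →
  Sys w β wB lB → ∀ Zs : List (Filter (List α) × Set (ℕ → B)), (∀ Z ∈ Zs, Zn w β Z.1 Z.2) →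
  Zs.length = m →
  ∀ g : List α → ZMod p, Lc w g → (∀ X, g X ≠ 0 → w X ≠ 0) → RR w (Zs.map Prod.fst) (N g)

/-- with at most `n` bad zones -/
def QJ (α : Type) (p m n : ℕ) : Prop := ∀ (B : Type) [Finite B]
  (w : List α → ZMod p) (β : List α → B) (wB : B → ZMod p) (lB : B → Option α), Stg w →
  Sys w β wB lB → ∀ Zs : List (Filter (List α) × Set (ℕ → B)), (∀ Z ∈ Zs, Zn w β Z.1 Z.2) →
  Zs.length = m →
  ∀ g : List α → ZMod p, Lc w g → (∀ X, g X ≠ 0 → w X ≠ 0) → nb g β wB Zs ≤ n →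
    RR w (Zs.map Prod.fst) (N g)

section core

variable [Finite α] [Fact p.Prime]

/-- local functions, from the core for shorter lists -/
theorem loc_RR (R : HRows) {m : ℕ} (hP : ∀ m' < m, PJ α p m') (B : Type) [Finite B]
    {w : List α → ZMod p} {β : List α → B} {wB : B → ZMod p} {lB : B → Option α} (hw : Stg w)
    (hS : Sys w β wB lB) {Zs : List (Filter (List α) × Set (ℕ → B))}
    (hZ : ∀ Z ∈ Zs, Zn w β Z.1 Z.2) (hm : Zs.length = m) {G : List α → ZMod p} (hG : Lc w G) :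
    RR w (Zs.map Prod.fst) G := by
  refine R.H3 α B p w β wB lB hw hS Zs hZ (fun Zs' hl hZ' g hg hs => ?_) G hG
  exact hP Zs'.length (hm ▸ hl) B w β wB lB hw hS Zs' hZ' rfl g hg hs

theorem Sys.unt_w (R : HRows) {w : List α → ZMod p} (hw : Stg w) : Unt w w :=
  (R.C α p w).2.2.2.2.2.2.2.1 hw

/-- a unit walk whose coverage is known -/
theorem walk_RR (R : HRows) {m : ℕ} (hP : ∀ m' < m, PJ α p m') (B : Type) [Finite B]
    {w h : List α → ZMod p} {β : List α → B} {wB : B → ZMod p} {lB : B → Option α} (hw : Stg w)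
    (hS : Sys w β wB lB) {Zs : List (Filter (List α) × Set (ℕ → B))}
    (hZ : ∀ Z ∈ Zs, Zn w β Z.1 Z.2) (hm : Zs.length = m) (hh : Unt w h)
    (hC : ∀ Z ∈ Zs, Cov h β Z.2) : RR w (Zs.map Prod.fst) (N h) := by
  refine stage_RR R.G2 R.H2 (ρ := 0) hw hS hh hZ (fun Z hZ' => cov_rc (hC Z hZ') 0)
    fun Zs' hF => ?_
  have hw' := R.B1 α p w h hw hh 0
  have hS' := R.G4 α B p w h β wB lB 0 hw hS hh
  refine loc_RR R hP (B × ZMod p × ZMod p) hw' hS' (over_zn hF) ?_ (R.B3 α p w h hw hh 0)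
  rw [← hF.length_eq]; exact hm

/-- memory at most one -/
theorem step_plain (R : HRows) {m n : ℕ} (hP : ∀ m' < m, PJ α p m')
    (hQ : ∀ n' < n, QJ α p m n') (B : Type) [Finite B]
    {w : List α → ZMod p} {β : List α → B} {wB : B → ZMod p} {lB : B → Option α} (hw : Stg w)
    (hS : Sys w β wB lB) {Zs : List (Filter (List α) × Set (ℕ → B))}
    (hZ : ∀ Z ∈ Zs, Zn w β Z.1 Z.2) (hm : Zs.length = m) {g : List α → ZMod p} (hg : Lc w g)
    (hs : ∀ X, g X ≠ 0 → w X ≠ 0) (hn : nb g β wB Zs ≤ n) (hM : Mem w 1 g) :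
    RR w (Zs.map Prod.fst) (N g) := by
  classical
  have hww : Unt w w := Sys.unt_w R hw
  set u : List α → ZMod p := fun X => g X * (w X)⁻¹ with hu
  have huL : Lc w u := by
    have h1 := (R.C α p w).2.1 _ _ g w hg ((R.C α p w).2.2.2.2.2.2.1 hw)
    exact (R.C α p w).1 _ _ (fun x : ZMod p × ZMod p => x.1 * x.2⁻¹) _ h1
  have huR : Rt w u := by
    intro c c' r hc hc' hr
    change g (r ++ c) * (w (r ++ c))⁻¹ = g (r ++ c') * (w (r ++ c'))⁻¹
    have h1 := hw.rt c c' r hc hc' hr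
    rw [h1]
    by_cases h2 : w (r ++ c') = 0
    · rw [h2]; simp
    · have h3 : w (r ++ c) ≠ 0 := by rw [h1]; exact h2
      have h4 : g (r ++ c) = g (r ++ c') := by
        apply hM c c' r hc hc'
        cases r with
        | nil => exact absurd rfl hr
        | cons a S =>
          rw [nc, if_neg (by simpa using h3)]
          omega
      rw [h4]
  have hgu : g = fun X => w X * u X := by
    funext X
    change g X = w X * (g X * (w X)⁻¹)
    by_cases h : w X = 0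
    · have : g X = 0 := by
        by_contra hne
        exact hs X hne h
      rw [this]; simp
    · field_simp
  have huF : ∀ Z ∈ Zs, Fl g β Z.2 → Fl u β Z.2 := by
    rintro Z - ⟨J, hJ⟩
    refine ⟨J, fun m hm X hX => ?_⟩
    change g X * (w X)⁻¹ = 0
    rw [hJ m hm X hX, zero_mul]
  have hNg : N g = fun X => ∑ ρ : ZMod p, (-ρ) * (N (phi w u ρ) X + Bf w u ρ X) := by
    funext X
    rw [hgu, R.D2 α p w u X, ← Finset.sum_neg_distrib]
    exact Finset.sum_congr rfl fun ρ _ => by ring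
  rw [hNg]
  refine RR_sum R.H1 Finset.univ _ fun ρ _ => (R.H1 α p w _).2.2 _ _ ((R.H1 α p w _).2.1 _ _ ?_ ?_)
  swap
  · -- the boundary term
    refine stage_RR R.G2 R.H2 (ρ := ρ) hw hS hww hZ (fun Z hZ' => cov_rc (hZ Z hZ').cov ρ)
      fun Zs' hF => ?_
    exact loc_RR R hP (B × ZMod p × ZMod p) (R.B1 α p w w hw hww ρ)
      (R.G4 α B p w w β wB lB ρ hw hS hww) (over_zn hF) (hF.length_eq ▸ hm)
      (R.D3 α p w u hw huL huR ρ).1
  -- the null label
  refine stage_RR R.G2 R.H2 (ρ := ρ) hw hS hww hZ (fun Z hZ' => cov_rc (hZ Z hZ').cov ρ)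
    fun Zs' hF => ?_
  have hw' := R.B1 α p w w hw hww ρ
  have hS' := R.G4 α B p w w β wB lB ρ hw hS hww
  obtain ⟨-, hphi, hunit⟩ := R.D3 α p w u hw huL huR ρ
  have hZ' := over_zn hF
  have hm' : Zs'.length = m := hF.length_eq ▸ hm
  have hsup : ∀ X, phi w u ρ X ≠ 0 → rc w ρ X ≠ 0 := by
    intro X hX h
    apply hX
    cases X with
    | nil => rfl
    | cons a X => rw [phi, if_pos h]
  have hrep : ∀ Z' ∈ Zs', ∃ τ, Rep (ext β w) Z'.2 (phi w u ρ) τ := fun Z' h' =>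
    R.G1 α (B × ZMod p × ZMod p) (ZMod p) p (rc w ρ) (ext β w) (wE ρ) _ Z'.2 hw' hS'
      (hZ' Z' h').mn.inv (hZ' Z' h').cov _ hphi
  -- heredity of the statuses
  have hFl : ∀ Z ∈ Zs, ∀ Z' ∈ Zs', Over (rc w ρ) β w Z Z' → Fl g β Z.2 →
      Fl (phi w u ρ) (ext β w) Z'.2 := fun Z h1 Z' h2 hO hf => fl_phi hS hO (huF Z h1 hf)
  have hGd : ∀ Z ∈ Zs, ∀ Z' ∈ Zs', Over (rc w ρ) β w Z Z' → Gd wB Z.2 → Gd (wE ρ) Z'.2 :=
    fun Z h1 Z' h2 hO hf => gd_over R.F2 R.G3 hS (hZ Z h1) hO hf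
  have hGd2 : ∀ Z ∈ Zs, ∀ Z' ∈ Zs', Over (rc w ρ) β w Z Z' → Gd wB Z.2 →
      ∀ τ, Rep (ext β w) Z'.2 (phi w u ρ) τ → ¬ Cob Z'.2 fun z => wE ρ (z 0) + τ z :=
    fun Z h1 Z' h2 hO hf τ hτ => gd_phi R.F2 R.G3 R.G1 R.G4 R.B1 R.C R.D3 hw hS (hZ Z h1) huL huR
      hO hf τ hτ
  by_cases hOK : ∀ Z' ∈ Zs', Fl (phi w u ρ) (ext β w) Z'.2 ∨
      ∀ τ, Rep (ext β w) Z'.2 (phi w u ρ) τ → ¬ Cob Z'.2 fun z => wE ρ (z 0) + τ z
  · -- all zones are fine: two unit walks
    have h1 : RR (rc w ρ) (Zs'.map Prod.fst) (N fun X => rc w ρ X + 1 * phi w u ρ X) := by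
      refine walk_RR R hP _ hw' hS' hZ' hm' (hunit 1) fun Z' h' => ?_
      rcases hOK Z' h' with ⟨J, hJ⟩ | hτ
      · refine R.F5 α _ p (ext β w) (rc w ρ) _ Z'.2 (hZ' Z' h').mn.inv ⟨J, fun m hm X hX => ?_⟩
          (hZ' Z' h').cov
        change rc w ρ X + 1 * phi w u ρ X = rc w ρ X
        rw [hJ m hm X hX]; ring
      · obtain ⟨τ, hτr⟩ := hrep Z' h'
        refine R.F4 α _ p (ext β w) _ Z'.2 (fun z => wE ρ (z 0) + τ z) (hZ' Z' h').mn ?_
          (hτ τ hτr)
        obtain ⟨J, hJ1, hJ2⟩ := hτr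
        refine ⟨J + 1, fun z z' h => ?_, fun m hm X hX => ?_⟩
        · change wE ρ (z 0) + τ z = wE ρ (z' 0) + τ z'
          rw [h 0 (by omega), hJ1 z z' fun i hi => h i (by omega)]
        · change rc w ρ X + 1 * phi w u ρ X = wE ρ (m 0) + τ m
          rw [hJ2 m hm X (hX.mono (by omega)), hS'.w_eq]
          have := hX.2 0 (by omega)
          rw [List.drop_zero] at this
          rw [this]; ring
    have h0 : RR (rc w ρ) (Zs'.map Prod.fst) (N (rc w ρ)) :=
      walk_RR R hP _ hw' hS' hZ' hm' (Sys.unt_w R hw') fun Z' h' => (hZ' Z' h').cov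
    have h2 := (R.H1 α p (rc w ρ) (Zs'.map Prod.fst)).2.1 _ _ h1
      ((R.H1 α p (rc w ρ) (Zs'.map Prod.fst)).2.2 (-1) _ h0)
    have e : N (phi w u ρ) = fun X => N (fun X => rc w ρ X + 1 * phi w u ρ X) X +
        (-1) * N (rc w ρ) X := by
      funext X
      rw [N_add, N_smul]; ring
    rw [e]; exact h2
  · -- some zone is not fine
    obtain ⟨Z0, hZ0, hnf, τ, hτ, hcob⟩ : ∃ Z0 ∈ Zs', ¬ Fl (phi w u ρ) (ext β w) Z0.2 ∧
        ∃ τ, Rep (ext β w) Z0.2 (phi w u ρ) τ ∧ Cob Z0.2 fun z => wE ρ (z 0) + τ z := by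
      by_contra hcon
      apply hOK
      intro Z' h'
      by_cases hf : Fl (phi w u ρ) (ext β w) Z'.2
      · exact Or.inl hf
      · exact Or.inr fun τ hτ hc => hcon ⟨Z', h', hf, τ, hτ, hc⟩
    have hbad0 : ∀ Z ∈ Zs, Over (rc w ρ) β w Z Z0 → Bad g β wB Z.2 := fun Z h1 hO =>
      ⟨fun hf => hnf (hFl Z h1 Z0 hZ0 hO hf), fun hf => hGd2 Z h1 Z0 hZ0 hO hf τ hτ hcob⟩
    by_cases hgd : Gd (wE ρ) Z0.2
    · -- it has become good
      have hlt := nb_lt hF (g := g) (g' := phi w u ρ) (β := β) (β' := ext β w) (wB := wB)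
        (wB' := wE ρ) (fun Z h1 Z' h2 hO hb hb' => by
          by_cases hf : Fl g β Z.2
          · exact hb'.1 (hFl Z h1 Z' h2 hO hf)
          · by_cases hd : Gd wB Z.2
            · exact hb'.2 (hGd Z h1 Z' h2 hO hd)
            · exact hb ⟨hf, hd⟩) hZ0 (fun h => h.2 hgd) hbad0
      exact hQ _ (lt_of_lt_of_le hlt hn) (B × ZMod p × ZMod p) (rc w ρ) (ext β w) (wE ρ) _ hw' hS'
        Zs' hZ' hm' _ hphi hsup le_rfl
    · -- flatten it
      have hcw : Cob Z0.2 fun z => wE ρ (z 0) := by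
        by_contra h
        exact hgd h
      have hcτ : Cob Z0.2 τ := (hcob.add hcw.neg).congr fun m _ => by ring
      obtain ⟨g', G', hg', hs', hG', hN', hf', hpres⟩ := R.I α (B × ZMod p × ZMod p) p (rc w ρ)
        (ext β w) (wE ρ) _ hw' hS' Zs' hZ' (phi w u ρ) hphi hsup Z0 hZ0 τ hτ hcτ
      have hlt := nb_lt hF (g := g) (g' := g') (β := β) (β' := ext β w) (wB := wB)
        (wB' := wE ρ) (fun Z h1 Z' h2 hO hb hb' => by
          by_cases hf : Fl g β Z.2
          · exact hb'.1 (hpres Z' h2 (hFl Z h1 Z' h2 hO hf))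
          · by_cases hd : Gd wB Z.2
            · exact hb'.2 (hGd Z h1 Z' h2 hO hd)
            · exact hb ⟨hf, hd⟩) hZ0 (fun h => h.1 hf') hbad0
      have e : N (phi w u ρ) = fun X => N g' X + G' X := funext hN'
      rw [e]
      exact (R.H1 α p _ _).2.1 _ _ (hQ _ (lt_of_lt_of_le hlt hn) (B × ZMod p × ZMod p) (rc w ρ)
        (ext β w) (wE ρ) _ hw' hS' Zs' hZ' hm' _ hg' hs' le_rfl)
        (loc_RR R hP (B × ZMod p × ZMod p) hw' hS' hZ' hm' hG')

/-- any memory -/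
theorem step_mem (R : HRows) {m n : ℕ} (hP : ∀ m' < m, PJ α p m')
    (hQ : ∀ n' < n, QJ α p m n') : ∀ (k : ℕ) (B : Type) [Finite B]
    {w : List α → ZMod p} {β : List α → B} {wB : B → ZMod p} {lB : B → Option α}, Stg w →
    Sys w β wB lB → ∀ {Zs : List (Filter (List α) × Set (ℕ → B))},
    (∀ Z ∈ Zs, Zn w β Z.1 Z.2) → Zs.length = m → ∀ {g : List α → ZMod p}, Lc w g →
    (∀ X, g X ≠ 0 → w X ≠ 0) → nb g β wB Zs ≤ n → Mem w (k + 1) g →
    RR w (Zs.map Prod.fst) (N g) := by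
  intro k
  induction k with
  | zero =>
    intro B _ w β wB lB hw hS Zs hZ hm g hg hs hn hM
    exact step_plain R hP hQ B hw hS hZ hm hg hs hn hM
  | succ k ih =>
    intro B _ w β wB lB hw hS Zs hZ hm g hg hs hn hM
    have hww : Unt w w := Sys.unt_w R hw
    have hNg : N g = fun X => ∑ ρ : ZMod p, N (fun X => if N w X = ρ then g X else 0) X := by
      funext X
      rw [← N_sum]
      congr 1
      funext X
      rw [Finset.sum_ite_eq]
      simp
    rw [hNg]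
    refine RR_sum R.H1 Finset.univ _ fun ρ _ => ?_
    refine stage_RR R.G2 R.H2 (ρ := ρ) hw hS hww hZ (fun Z hZ' => cov_rc (hZ Z hZ').cov ρ)
      fun Zs' hF => ?_
    have hw' := R.B1 α p w w hw hww ρ
    have hS' := R.G4 α B p w w β wB lB ρ hw hS hww
    have hZ' := over_zn hF
    have hB2 : ∀ G : List α → ZMod p, Lc w G → Lc (rc w ρ) G := fun G hG =>
      R.B2 α (ZMod p) p w w hw hww ρ G hG
    have hNL : Lc (rc w ρ) (N w) := R.B3 α p w w hw hww ρ
    have hgL : Lc (rc w ρ) fun X => if N w X = ρ then g X else 0 := by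
      have h1 := (R.C α p (rc w ρ)).2.1 _ _ (N w) g hNL (hB2 g hg)
      exact (R.C α p (rc w ρ)).1 _ _ (fun x : ZMod p × ZMod p => if x.1 = ρ then x.2 else 0) _ h1
    refine ih (B × ZMod p × ZMod p) hw' hS' hZ' (hF.length_eq ▸ hm) hgL ?_ ?_ ?_
    · intro X hX
      have h1 : N w X = ρ := by
        by_contra hne
        exact hX (if_neg hne)
      have h2 : g X ≠ 0 := by
        intro h0
        apply hX
        change (if N w X = ρ then g X else 0) = 0
        rw [h0]; simp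
      rw [rc, if_pos h1]
      exact hs X h2
    · refine le_trans (nb_le hF fun Z h1 Z' h2 hO hb hb' => ?_) hn
      by_cases hf : Fl g β Z.2
      · exact hb'.1 (fl_arr hO hf)
      · by_cases hd : Gd wB Z.2
        · exact hb'.2 (gd_over R.F2 R.G3 hS (hZ Z h1) hO hd)
        · exact hb ⟨hf, hd⟩
    · exact R.D1 α p w hw (k + 1) g (by omega) hs hM ρ

theorem all_QJ (R : HRows) {m : ℕ} (hP : ∀ m' < m, PJ α p m') : ∀ n, QJ α p m n := by
  intro n
  induction n using Nat.strong_induction_on with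
  | _ n ih =>
    intro B _ w β wB lB hw hS Zs hZ hm g hg hs hn
    obtain ⟨k, hk⟩ := hg.2.2
    exact step_mem R hP ih k B hw hS hZ hm hg hs hn (hk.mono (Nat.le_succ k))

theorem all_PJ (R : HRows) : ∀ m, PJ α p m := by
  intro m
  induction m using Nat.strong_induction_on with
  | _ m ih =>
    intro B _ w β wB lB hw hS Zs hZ hm g hg hs
    exact all_QJ R ih (nb g β wB Zs) B w β wB lB hw hS Zs hZ hm g hg hs le_rfl

end core

theorem rowJ (R : HRows) : RowJ := by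
  intro α B _ _ p _ w β wB lB hw hS Zs hZ g hg hs
  exact all_PJ R Zs.length B w β wB lB hw hS Zs hZ rfl g hg hs

end Vale.Agent.P329.H962
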